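import Vale.Agent.P245.H670.G2
import Vale.Agent.P245.H991.Spec

/-! # P245, row G2: from `GLev` to the hypotheses of the static part -/

open MeasureTheory Real Set Filter Topology

noncomputable section

namespace Vale.Agent.P245.H670

open LS E1
open H485 (Sf mSq mDE mFl SBm)

variable {n : ℕ}

/-- **row G2** for the structure `GLev` of the interface -/
theorem sout_of_glev {ρ0 : (Fin n → ℝ) → ℝ} {R κ r C0 h Ka M : ℝ} {N : (Fin n → ℝ) → ℝ}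
    {f : Fin n → (Fin n → ℝ) → ℝ} (hρ : LCd ρ0) [hp : IsProbabilityMeasure (mu ρ0)]
    (hc : CSupp (mu ρ0) R) (hC0 : 0 < C0) (hκ : 0 < κ) (hh0 : 0 ≤ h) (hh : h ≤ 1 / 10)
    (g : H991.GLev (mu ρ0) C0 κ r N f h Ka M) :
    SOut (mu ρ0) κ r (LS.FI (mu ρ0) r N) h N f :=
  g2 hρ hc (lt_of_lt_of_le (by positivity) g.lo) hκ hh0 hh g.pos g.sf g.F0 g.e_lo g.e_hi g.tb
    g.fl g.aa g.da

/-- numbers for the static part: level, slack and entropy in terms of `S2` -/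
theorem nums_of_glev {ρ0 : (Fin n → ℝ) → ℝ} {R κ r C0 h Ka M : ℝ} {N : (Fin n → ℝ) → ℝ}
    {f : Fin n → (Fin n → ℝ) → ℝ} (hρ : LCd ρ0) [hp : IsProbabilityMeasure (mu ρ0)]
    (hc : CSupp (mu ρ0) R) (hC0 : 0 < C0) (hκ : 0 < κ) (hh0 : 0 ≤ h) (hh : h ≤ 1 / 10)
    (g : H991.GLev (mu ρ0) C0 κ r N f h Ka M) :
    0 < r ∧ 0 < LS.FI (mu ρ0) r N ∧ 0 < mSq (mu ρ0) r N (Sf κ f) ∧
      κ * LS.FI (mu ρ0) r N ≤ 3 * mSq (mu ρ0) r N (Sf κ f) ∧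
      LS.HE (mu ρ0) r N ≤ κ * LS.FI (mu ρ0) r N ∧
      r * mFl (mu ρ0) r N (Sf κ f) ≤ 3 * h * mSq (mu ρ0) r N (Sf κ f) ∧
      mDE (mu ρ0) r N (Sf κ f) ≤ (1 + 2 * h) * mSq (mu ρ0) r N (Sf κ f) / (2 * κ) ∧
      κ ^ 2 / 4 * H719.DA (mu ρ0) r N f ≤ h * mSq (mu ρ0) r N (Sf κ f) / (4 * κ) := by
  have s := sout_of_glev hρ hc hC0 hκ hh0 hh g
  exact ⟨lt_of_lt_of_le (by positivity) g.lo, g.F0, s.pos, s.fi, g.he, s.fl, s.ds, s.da⟩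

end Vale.Agent.P245.H670
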