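import Vale.Agent.P245.H670.Fld

/-! # P245, row G2: the flat part `E tr (S D²V S)` for `S = κ sym(D f)` -/

set_option linter.unusedSectionVars false

open MeasureTheory Real Set Filter Topology

noncomputable section

namespace Vale.Agent.P245.H670

open LS E1
open H485 (Sf mSq mDE mFl SBm)
open H719 (AA DA)
open H991 (D2 BS)
open Vale.Agent.P254.SP620 (fr)

variable {n : ℕ} {ρ0 : (Fin n → ℝ) → ℝ} {R r : ℝ} {N : (Fin n → ℝ) → ℝ}

/-- parallelogram for the quadratic form `BI` -/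
theorem bi_sub_le (hρ : LCd ρ0) [hp : IsProbabilityMeasure (mu ρ0)] (hc : CSupp (mu ρ0) R)
    (hr : 0 < r) (hN : Pos N) {φ ψ : Fin n → (Fin n → ℝ) → ℝ} (hφ : ∀ i, SB (φ i))
    (hψ : ∀ i, SB (ψ i)) (a b : ℝ) :
    BI (mu ρ0) r N (fun i y => a * φ i y + b * ψ i y) (fun i y => a * φ i y + b * ψ i y)
      ≤ 2 * a ^ 2 * BI (mu ρ0) r N φ φ + 2 * b ^ 2 * (1 / r * IP (mu ρ0) r N ψ ψ) := by
  have st := thP n ρ0 R hρ hp hc
  have hθ : ∀ (b : ℝ) (i : Fin n), SB fun y => a * φ i y + b * ψ i y := fun b i =>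
    ((hφ i).const_mul a).add ((hψ i).const_mul b)
  have ex : ∀ b : ℝ, BI (mu ρ0) r N (fun i y => a * φ i y + b * ψ i y)
      (fun i y => a * φ i y + b * ψ i y)
      = a ^ 2 * BI (mu ρ0) r N φ φ + 2 * a * b * BI (mu ρ0) r N φ ψ
        + b ^ 2 * BI (mu ρ0) r N ψ ψ := by
    intro b
    rw [(st r N φ ψ hr hN hφ hψ).2.2.2 (fun i y => a * φ i y + b * ψ i y) a b (hθ b),
      (st r N φ (fun i y => a * φ i y + b * ψ i y) hr hN hφ (hθ b)).2.1,
      (st r N ψ (fun i y => a * φ i y + b * ψ i y) hr hN hψ (hθ b)).2.1,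
      (st r N φ ψ hr hN hφ hψ).2.2.2 φ a b hφ, (st r N φ ψ hr hN hφ hψ).2.2.2 ψ a b hψ,
      (st r N ψ φ hr hN hψ hφ).2.1]
    ring
  have h0 := (st r N (fun i y => a * φ i y + (-b) * ψ i y)
    (fun i y => a * φ i y + (-b) * ψ i y) hr hN (hθ (-b)) (hθ (-b))).1
  rw [ex (-b)] at h0
  have h1 := (st r N ψ ψ hr hN hψ hψ).2.2.1
  have h2 := (st r N ψ ψ hr hN hψ hψ).1
  have h3 : BI (mu ρ0) r N ψ ψ ≤ 1 / r * IP (mu ρ0) r N ψ ψ := by
    rcases h2.eq_or_lt with h | h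
    · rw [← h]
      have h4 : 0 ≤ IP (mu ρ0) r N ψ ψ := EY_nonneg _ _ fun y =>
        mul_nonneg (hN.pos y).le (Finset.sum_nonneg fun i _ => mul_self_nonneg _)
      positivity
    · rw [sq] at h1
      exact le_of_mul_le_mul_right h1 h
  rw [ex b]
  have h5 : b ^ 2 * BI (mu ρ0) r N ψ ψ ≤ b ^ 2 * (1 / r * IP (mu ρ0) r N ψ ψ) :=
    mul_le_mul_of_nonneg_left h3 (sq_nonneg b)
  nlinarith [h0, h5]

theorem sb_pv (hc : CSupp (mu ρ0) R) [hp : IsProbabilityMeasure (mu ρ0)] (hr : 0 < r)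
    (i j : Fin n) : SB (PV (mu ρ0) r i j) := ((thR' n (mu ρ0) R hc).2.1 r i j hr).1

theorem mFl_eq (hc : CSupp (mu ρ0) R) [hp : IsProbabilityMeasure (mu ρ0)] (hr : 0 < r)
    (hN : Pos N) {A : (Fin n → ℝ) → Matrix (Fin n) (Fin n) ℝ} (hA : SBm A) :
    mFl (mu ρ0) r N A
      = ∑ k, BI (mu ρ0) r N (fun i y => A y i k) (fun i y => A y i k) := by
  have e : (fun y => N y * ∑ k, ∑ i, ∑ j, PV (mu ρ0) r i j y * A y i k * A y j k)
      = fun y => ∑ k, N y * ∑ i, ∑ j, PV (mu ρ0) r i j y * A y i k * A y j k := by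
    funext y
    rw [Finset.mul_sum]
  unfold H485.mFl BI
  rw [e]
  exact EY_sum _ _ _ fun k _ => hN.sb.mul (SB.sum _ fun i _ => SB.sum _ fun j _ =>
    ((sb_pv hc hr i j).mul (hA i k)).mul (hA j k))

theorem BS_eq (hc : CSupp (mu ρ0) R) [hp : IsProbabilityMeasure (mu ρ0)] (hr : 0 < r)
    (hN : Pos N) {f : Fin n → (Fin n → ℝ) → ℝ} (hf : ∀ i, SB (f i)) :
    BS (mu ρ0) r N f = ∑ k, BI (mu ρ0) r N (fun i => pd (f k) i) (fun i => pd (f k) i) := by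
  have e : (fun y => N y * ∑ k, ∑ i, ∑ j, PV (mu ρ0) r i j y * pd (f k) i y * pd (f k) j y)
      = fun y => ∑ k, N y * ∑ i, ∑ j, PV (mu ρ0) r i j y * pd (f k) i y * pd (f k) j y := by
    funext y
    rw [Finset.mul_sum]
  unfold H991.BS BI
  rw [e]
  exact EY_sum _ _ _ fun k _ => hN.sb.mul (SB.sum _ fun i _ => SB.sum _ fun j _ =>
    ((sb_pv hc hr i j).mul ((hf k).pd i)).mul ((hf k).pd j))

theorem AA_eq {μ : Measure (Fin n → ℝ)} [IsProbabilityMeasure μ] (hN : Pos N)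
    {f : Fin n → (Fin n → ℝ) → ℝ} (hf : ∀ i, SB (f i)) :
    AA μ r N f = ∑ k, IP μ r N (fun i y => pd (f k) i y - pd (f i) k y)
      (fun i y => pd (f k) i y - pd (f i) k y) := by
  have e : (fun y => N y * ∑ j, ∑ k, (pd (f k) j y - pd (f j) k y) ^ 2)
      = fun y => ∑ k, N y * ∑ i, (pd (f k) i y - pd (f i) k y) * (pd (f k) i y - pd (f i) k y) := by
    funext y
    rw [Finset.sum_comm, Finset.mul_sum]
    refine Finset.sum_congr rfl fun k _ => ?_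
    congr 1
    exact Finset.sum_congr rfl fun i _ => sq _
  unfold H719.AA IP
  rw [e]
  exact EY_sum _ _ _ fun k _ => hN.sb.mul (SB.sum _ fun i _ =>
    (((hf k).pd i).sub ((hf i).pd k)).mul (((hf k).pd i).sub ((hf i).pd k)))

/-- **flats**: `E tr (S D²V S) ≤ 2 κ² E ∑ ⟨D f_i, D²V D f_i⟩ + κ²/(2 r) E|A|²` -/
theorem mFl_sf_le (κ : ℝ) (hρ : LCd ρ0) [hp : IsProbabilityMeasure (mu ρ0)]
    (hc : CSupp (mu ρ0) R) (hr : 0 < r) (hN : Pos N) {f : Fin n → (Fin n → ℝ) → ℝ}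
    (hf : ∀ i, SB (f i)) :
    mFl (mu ρ0) r N (Sf κ f)
      ≤ 2 * κ ^ 2 * BS (mu ρ0) r N f + κ ^ 2 / (2 * r) * AA (mu ρ0) r N f := by
  rw [mFl_eq hc hr hN (sf_sb κ hf), BS_eq hc hr hN hf, AA_eq hN hf, Finset.mul_sum,
    Finset.mul_sum, ← Finset.sum_add_distrib]
  refine Finset.sum_le_sum fun k _ => ?_
  have h := bi_sub_le hρ hc hr hN (φ := fun i => pd (f k) i)
    (ψ := fun i y => pd (f k) i y - pd (f i) k y) (fun i => (hf k).pd i)
    (fun i => ((hf k).pd i).sub ((hf i).pd k)) κ (-(κ / 2))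
  have e : (fun (i : Fin n) y => Sf κ f y i k)
      = fun i y => κ * pd (f k) i y + -(κ / 2) * (pd (f k) i y - pd (f i) k y) := by
    funext i y
    rw [sf_apply]
    ring
  rw [e]
  refine h.trans (le_of_eq ?_)
  ring

end Vale.Agent.P245.H670
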