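import Vale.Agent.P245.H670.Near
import Vale.Agent.P245.H485.FinDefs
import Vale.Agent.P245.H719.Sym
import Vale.Agent.P245.H991.TB1

/-! # P245, row G2: the matrix field `S = κ sym(D f)` from the good level

`f` a vector field with small antisymmetric part of the gradient; `S i j = κ/2 (∂_j f_i + ∂_i f_j)`.
Energy identities and inequalities for `S`, `D S` and the flat part. -/

set_option linter.unusedSectionVars false

open MeasureTheory Real Set Filter Topology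

noncomputable section

namespace Vale.Agent.P245.H670

open LS E1
open H485 (Sf mSq mDE mFl SBm)
open H719 (AA DA)
open H991 (D2 BS)
open Vale.Agent.P254.SP620 (fr)

variable {n : ℕ}

/-! ### pointwise identities -/

theorem sf_apply (κ : ℝ) (f : Fin n → (Fin n → ℝ) → ℝ) (y : Fin n → ℝ) (i j : Fin n) :
    Sf κ f y i j = κ / 2 * (pd (f i) j y + pd (f j) i y) := rfl

theorem sf_symm (κ : ℝ) (f : Fin n → (Fin n → ℝ) → ℝ) (y : Fin n → ℝ) :
    (Sf κ f y).transpose = Sf κ f y := by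
  ext i j
  rw [Matrix.transpose_apply, sf_apply, sf_apply]
  ring

variable {f : Fin n → (Fin n → ℝ) → ℝ}

theorem sf_sb (κ : ℝ) (hf : ∀ i, SB (f i)) : SBm (Sf κ f) := fun i j =>
  (((hf i).pd j).add ((hf j).pd i)).const_mul (κ / 2)

/-- `|S|² = κ² (|D f|² - |A|²/4)` -/
theorem fr_sf (κ : ℝ) (f : Fin n → (Fin n → ℝ) → ℝ) (y : Fin n → ℝ) :
    fr (Sf κ f y) = κ ^ 2 * ∑ i, ∑ j, pd (f i) j y ^ 2
      + (-(κ ^ 2 / 4)) * ∑ j, ∑ k, (pd (f k) j y - pd (f j) k y) ^ 2 := by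
  have s1 : ∑ i, ∑ j, pd (f j) i y ^ 2 = ∑ i, ∑ j, pd (f i) j y ^ 2 := Finset.sum_comm
  have e1 : fr (Sf κ f y) = κ ^ 2 / 4 * (∑ i, ∑ j, pd (f i) j y ^ 2 + ∑ i, ∑ j, pd (f j) i y ^ 2
      + 2 * ∑ i, ∑ j, pd (f i) j y * pd (f j) i y) := by
    unfold fr
    simp only [sf_apply, Finset.mul_sum, ← Finset.sum_add_distrib]
    refine Finset.sum_congr rfl fun i _ => Finset.sum_congr rfl fun j _ => ?_
    ring
  have e2 : ∑ j, ∑ k, (pd (f k) j y - pd (f j) k y) ^ 2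
      = ∑ i, ∑ j, pd (f i) j y ^ 2 + ∑ i, ∑ j, pd (f j) i y ^ 2
      - 2 * ∑ i, ∑ j, pd (f i) j y * pd (f j) i y := by
    simp only [Finset.mul_sum, ← Finset.sum_add_distrib, ← Finset.sum_sub_distrib]
    refine Finset.sum_congr rfl fun i _ => Finset.sum_congr rfl fun j _ => ?_
    ring
  rw [e1, e2, s1]
  ring

theorem pd_sf (κ : ℝ) (hf : ∀ i, SB (f i)) (e i j : Fin n) (y : Fin n → ℝ) :
    pd (fun z => Sf κ f z i j) e y
      = κ / 2 * (pd (pd (f i) j) e y + pd (pd (f j) i) e y) := by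
  have h1 := ((hf i).pd j).differentiable
  have h2 := ((hf j).pd i).differentiable
  have h3 : Differentiable ℝ fun z => pd (f i) j z + pd (f j) i z := h1.add h2
  have e1 : (fun z => Sf κ f z i j) = fun z => κ / 2 * (pd (f i) j z + pd (f j) i z) := rfl
  have e2 : pd (fun z => κ / 2 * (pd (f i) j z + pd (f j) i z)) e y
      = κ / 2 * pd (fun z => pd (f i) j z + pd (f j) i z) e y := by
    have := fderiv_const_mul (h3 y) (κ / 2)
    change fderiv ℝ (fun z => κ / 2 * (pd (f i) j z + pd (f j) i z)) y (Pi.single e 1) = _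
    rw [this]
    rfl
  rw [e1, e2, congrFun (LS.pd_add h1 h2 e) y]

/-- `|D S|² ≤ κ² |D² f|²` -/
theorem sum_pd_sf_le (κ : ℝ) (hf : ∀ i, SB (f i)) (y : Fin n → ℝ) :
    ∑ e, ∑ i, ∑ j, pd (fun z => Sf κ f z i j) e y ^ 2
      ≤ κ ^ 2 * ∑ i, ∑ j, ∑ k, pd (pd (f i) j) k y ^ 2 := by
  have s1 : ∑ e, ∑ i, ∑ j, pd (pd (f i) j) e y ^ 2 = ∑ i, ∑ j, ∑ e, pd (pd (f i) j) e y ^ 2 := by
    rw [Finset.sum_comm]
    exact Finset.sum_congr rfl fun i _ => Finset.sum_comm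
  have s2 : ∑ e, ∑ i, ∑ j, pd (pd (f j) i) e y ^ 2 = ∑ e, ∑ i, ∑ j, pd (pd (f i) j) e y ^ 2 :=
    Finset.sum_congr rfl fun e _ => Finset.sum_comm
  calc ∑ e, ∑ i, ∑ j, pd (fun z => Sf κ f z i j) e y ^ 2
      ≤ ∑ e, ∑ i, ∑ j, κ ^ 2 / 2 * (pd (pd (f i) j) e y ^ 2 + pd (pd (f j) i) e y ^ 2) := by
        refine Finset.sum_le_sum fun e _ => Finset.sum_le_sum fun i _ =>
          Finset.sum_le_sum fun j _ => ?_
        rw [pd_sf κ hf]
        nlinarith [mul_nonneg (sq_nonneg κ) (sq_nonneg (pd (pd (f i) j) e y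
          - pd (pd (f j) i) e y))]
    _ = κ ^ 2 / 2 * (∑ e, ∑ i, ∑ j, pd (pd (f i) j) e y ^ 2
          + ∑ e, ∑ i, ∑ j, pd (pd (f j) i) e y ^ 2) := by
        simp only [Finset.mul_sum, ← Finset.sum_add_distrib, mul_add]
    _ = κ ^ 2 * ∑ i, ∑ j, ∑ k, pd (pd (f i) j) k y ^ 2 := by
        rw [s2, s1]
        ring

theorem pd_sf_symm (κ : ℝ) (f : Fin n → (Fin n → ℝ) → ℝ) (e i j : Fin n) (y : Fin n → ℝ) :
    pd (fun z => Sf κ f z i j) e y = pd (fun z => Sf κ f z j i) e y := by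
  have : (fun z => Sf κ f z i j) = fun z => Sf κ f z j i := by
    funext z
    rw [sf_apply, sf_apply]
    ring
  rw [this]

/-- the asymmetry of `D S` -/
theorem asym_sf (κ : ℝ) (hf : ∀ i, SB (f i)) (y : Fin n → ℝ) :
    ∑ e, ∑ i, ∑ j, (pd (fun z => Sf κ f z i j) e y - pd (fun z => Sf κ f z e j) i y) ^ 2
      = κ ^ 2 / 4 * ∑ j, ∑ k, ∑ l, (pd (pd (f k) j) l y - pd (pd (f j) k) l y) ^ 2 := by
  simp only [Finset.mul_sum]
  refine Finset.sum_congr rfl fun e _ => Finset.sum_congr rfl fun i _ =>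
    Finset.sum_congr rfl fun j _ => ?_
  rw [pd_sf κ hf, pd_sf κ hf]
  have c1 : pd (pd (f i) j) e y = pd (pd (f i) e) j y :=
    congrFun (H719.pd_comm_sb (hf i) j e) y
  have c2 : pd (pd (f e) j) i y = pd (pd (f e) i) j y :=
    congrFun (H719.pd_comm_sb (hf e) j i) y
  have c3 : pd (pd (f j) e) i y = pd (pd (f j) i) e y :=
    congrFun (H719.pd_comm_sb (hf j) e i) y
  rw [c1, c2, c3]
  ring

/-! ### integrated forms -/

variable {μ : Measure (Fin n → ℝ)} [IsProbabilityMeasure μ] {r : ℝ} {N : (Fin n → ℝ) → ℝ}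

theorem sb_grad (hN : SB N) (hf : ∀ i, SB (f i)) :
    SB fun y => N y * ∑ i, ∑ j, pd (f i) j y ^ 2 :=
  hN.mul (SB.sum _ fun i _ => SB.sum _ fun j _ => ((hf i).pd j).pow 2)

theorem sb_asym (hN : SB N) (hf : ∀ i, SB (f i)) :
    SB fun y => N y * ∑ j, ∑ k, (pd (f k) j y - pd (f j) k y) ^ 2 :=
  hN.mul (SB.sum _ fun j _ => SB.sum _ fun k _ => (((hf k).pd j).sub ((hf j).pd k)).pow 2)

theorem sb_hess (hN : SB N) (hf : ∀ i, SB (f i)) :
    SB fun y => N y * ∑ i, ∑ j, ∑ k, pd (pd (f i) j) k y ^ 2 :=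
  hN.mul (SB.sum _ fun i _ => SB.sum _ fun j _ => SB.sum _ fun k _ => (((hf i).pd j).pd k).pow 2)

theorem sb_dasym (hN : SB N) (hf : ∀ i, SB (f i)) :
    SB fun y => N y * ∑ j, ∑ k, ∑ l, (pd (pd (f k) j) l y - pd (pd (f j) k) l y) ^ 2 :=
  hN.mul (SB.sum _ fun j _ => SB.sum _ fun k _ => SB.sum _ fun l _ =>
    ((((hf k).pd j).pd l).sub (((hf j).pd k).pd l)).pow 2)

theorem sb_dsf (κ : ℝ) (hf : ∀ i, SB (f i)) (e i j : Fin n) :
    SB fun y => pd (fun z => Sf κ f z i j) e y := (sf_sb κ hf i j).pd e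

/-- **(P)**: `E|S|² = κ² (E|Df|² - E|A|²/4)` -/
theorem mSq_sf (κ : ℝ) (hN : Pos N) (hf : ∀ i, SB (f i)) :
    mSq μ r N (Sf κ f) = κ ^ 2 * (DE μ r N f - AA μ r N f / 4) := by
  have e1 : (fun y => N y * fr (Sf κ f y)) = fun y =>
      κ ^ 2 * (N y * ∑ i, ∑ j, pd (f i) j y ^ 2)
      + (-(κ ^ 2 / 4)) * (N y * ∑ j, ∑ k, (pd (f k) j y - pd (f j) k y) ^ 2) := by
    funext y
    rw [fr_sf]
    ring
  unfold H485.mSq
  rw [e1, EY_add μ r ((sb_grad hN.sb hf).const_mul _) ((sb_asym hN.sb hf).const_mul _),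
    LS.EY_const_mul, LS.EY_const_mul]
  unfold DE AA
  ring

theorem mDE_sf_le (κ : ℝ) (hN : Pos N) (hf : ∀ i, SB (f i)) :
    mDE μ r N (Sf κ f) ≤ κ ^ 2 * D2 μ r N f := by
  unfold H485.mDE H991.D2
  rw [← LS.EY_const_mul]
  refine EY_mono_bm (SB.bm (hN.sb.mul (SB.sum _ fun e _ => SB.sum _ fun i _ =>
    SB.sum _ fun j _ => (sb_dsf κ hf e i j).pow 2))) (SB.bm ((sb_hess hN.sb hf).const_mul _))
    fun y => ?_
  have h1 := mul_le_mul_of_nonneg_left (sum_pd_sf_le κ hf y) (hN.pos y).le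
  calc _ ≤ _ := h1
    _ = _ := by ring

/-- the energy of the asymmetry of `D S` -/
theorem mAs_sf (κ : ℝ) (hf : ∀ i, SB (f i)) :
    EY μ r (fun y => N y * ∑ e, ∑ i, ∑ j,
      (pd (fun z => Sf κ f z i j) e y - pd (fun z => Sf κ f z e j) i y) ^ 2)
      = κ ^ 2 / 4 * DA μ r N f := by
  unfold H719.DA
  rw [← LS.EY_const_mul]
  congr 1
  funext y
  rw [asym_sf κ hf]
  ring

end Vale.Agent.P245.H670
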