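import Vale.Agent.P245.H670.Flat

/-! # P245, row G2: from the good level to the hypotheses of the static part

`e = E|D f|²`, `F > 0` the Fisher information, `h` small. -/

set_option linter.unusedSectionVars false

open MeasureTheory Real Set Filter Topology

noncomputable section

namespace Vale.Agent.P245.H670

open LS E1
open H485 (Sf mSq mDE mFl SBm)
open H719 (AA DA)
open H991 (D2 BS)
open Vale.Agent.P254.SP620 (fr)

variable {n : ℕ}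

/-- everything that the static part needs about `S = κ sym(D f)` -/
structure SOut (μ : Measure (Fin n → ℝ)) (κ b F h : ℝ) (N : (Fin n → ℝ) → ℝ)
    (f : Fin n → (Fin n → ℝ) → ℝ) : Prop where
  sb : SBm (Sf κ f)
  symm : ∀ y, (Sf κ f y).transpose = Sf κ f y
  pos : 0 < mSq μ b N (Sf κ f)
  id : mSq μ b N (Sf κ f) = κ ^ 2 * (DE μ b N f - AA μ b N f / 4)
  le : mSq μ b N (Sf κ f) ≤ κ ^ 2 * DE μ b N f
  ge : κ ^ 2 * DE μ b N f * (1 - h / 4) ≤ mSq μ b N (Sf κ f)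
  fi : κ * F ≤ 3 * mSq μ b N (Sf κ f)
  fi' : (1 - h) * (1 - h / 4) * (κ * F) ≤ 2 * mSq μ b N (Sf κ f)
  le' : 2 * mSq μ b N (Sf κ f) ≤ (1 + h) * (κ * F)
  ds : mDE μ b N (Sf κ f) ≤ (1 + 2 * h) * mSq μ b N (Sf κ f) / (2 * κ)
  fl : b * mFl μ b N (Sf κ f) ≤ 3 * h * mSq μ b N (Sf κ f)
  da : κ ^ 2 / 4 * DA μ b N f ≤ h * mSq μ b N (Sf κ f) / (4 * κ)
  as : EY μ b (fun y => N y * ∑ e, ∑ i, ∑ j,
      (pd (fun z => Sf κ f z i j) e y - pd (fun z => Sf κ f z e j) i y) ^ 2)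
      ≤ h * mSq μ b N (Sf κ f) / (4 * κ)

/-- **row G2** -/
theorem g2 {ρ0 : (Fin n → ℝ) → ℝ} {R κ b F h : ℝ} {N : (Fin n → ℝ) → ℝ}
    {f : Fin n → (Fin n → ℝ) → ℝ} (hρ : LCd ρ0) [hp : IsProbabilityMeasure (mu ρ0)]
    (hc : CSupp (mu ρ0) R) (hb : 0 < b) (hκ : 0 < κ) (hh0 : 0 ≤ h) (hh : h ≤ 1 / 10)
    (hN : Pos N) (hf : ∀ i, SB (f i)) (hF : 0 < F)
    (he1 : (1 - h) * F ≤ 2 * κ * DE (mu ρ0) b N f)
    (he2 : 2 * κ * DE (mu ρ0) b N f ≤ (1 + h) * F)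
    (hD2 : 2 * κ * D2 (mu ρ0) b N f ≤ (1 + h) * DE (mu ρ0) b N f)
    (hBS : b * BS (mu ρ0) b N f ≤ h * DE (mu ρ0) b N f)
    (hAA : AA (mu ρ0) b N f ≤ h * DE (mu ρ0) b N f)
    (hDA : 2 * κ * DA (mu ρ0) b N f ≤ h * DE (mu ρ0) b N f) :
    SOut (mu ρ0) κ b F h N f := by
  set e := DE (mu ρ0) b N f with he
  set S2 := mSq (mu ρ0) b N (Sf κ f) with hS2
  have hid : S2 = κ ^ 2 * (e - AA (mu ρ0) b N f / 4) := mSq_sf κ hN hf
  have hA0 : 0 ≤ AA (mu ρ0) b N f := EY_nonneg _ _ fun y =>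
    mul_nonneg (hN.pos y).le (Finset.sum_nonneg fun j _ => Finset.sum_nonneg fun k _ => sq_nonneg _)
  have hκ2 : 0 < κ ^ 2 := by positivity
  have hh1 : 0 < 1 - h := by linarith
  have he0 : 0 < e := by
    have h1 : 0 < (1 - h) * F := mul_pos hh1 hF
    have h2 : 0 < 2 * κ * e := lt_of_lt_of_le h1 he1
    exact pos_of_mul_pos_right h2 (by positivity)
  have hle : S2 ≤ κ ^ 2 * e := by
    rw [hid]
    exact mul_le_mul_of_nonneg_left (by linarith) hκ2.le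
  have hge : κ ^ 2 * e * (1 - h / 4) ≤ S2 := by
    rw [hid, mul_assoc]
    exact mul_le_mul_of_nonneg_left (by linarith) hκ2.le
  have hge' : κ ^ 2 * e * (39 / 40) ≤ S2 := by
    refine le_trans ?_ hge
    exact mul_le_mul_of_nonneg_left (by linarith) (by positivity)
  have hS0 : 0 < S2 := lt_of_lt_of_le (by positivity) hge'
  -- `κ F (1 - h) ≤ 2 κ² e`
  have k1 : (1 - h) * (κ * F) ≤ 2 * (κ ^ 2 * e) := by
    calc (1 - h) * (κ * F) = κ * ((1 - h) * F) := by ring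
      _ ≤ κ * (2 * κ * e) := mul_le_mul_of_nonneg_left he1 hκ.le
      _ = 2 * (κ ^ 2 * e) := by ring
  have k2 : 2 * (κ ^ 2 * e) ≤ (1 + h) * (κ * F) := by
    calc 2 * (κ ^ 2 * e) = κ * (2 * κ * e) := by ring
      _ ≤ κ * ((1 + h) * F) := mul_le_mul_of_nonneg_left he2 hκ.le
      _ = (1 + h) * (κ * F) := by ring
  have hκF : 0 < κ * F := by positivity
  have hfi' : (1 - h) * (1 - h / 4) * (κ * F) ≤ 2 * S2 := by
    have h1 : 0 ≤ 1 - h / 4 := by linarith only [hh]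
    calc (1 - h) * (1 - h / 4) * (κ * F) = (1 - h) * (κ * F) * (1 - h / 4) := by ring
      _ ≤ 2 * (κ ^ 2 * e) * (1 - h / 4) := mul_le_mul_of_nonneg_right k1 h1
      _ = 2 * (κ ^ 2 * e * (1 - h / 4)) := by ring
      _ ≤ 2 * S2 := by linarith only [hge]
  have hfi : κ * F ≤ 3 * S2 := by
    have h1 : 9 / 10 * (κ * F) ≤ 2 * (κ ^ 2 * e) :=
      le_trans (mul_le_mul_of_nonneg_right (by linarith) hκF.le) k1
    linarith only [h1, hge', hκF]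
  have hds : mDE (mu ρ0) b N (Sf κ f) ≤ (1 + 2 * h) * S2 / (2 * κ) := by
    rw [le_div_iff₀ (by positivity)]
    have h1 : mDE (mu ρ0) b N (Sf κ f) ≤ κ ^ 2 * D2 (mu ρ0) b N f := mDE_sf_le κ hN hf
    have h2 : mDE (mu ρ0) b N (Sf κ f) * (2 * κ) ≤ κ ^ 2 * (2 * κ * D2 (mu ρ0) b N f) := by
      calc mDE (mu ρ0) b N (Sf κ f) * (2 * κ) ≤ κ ^ 2 * D2 (mu ρ0) b N f * (2 * κ) :=
            mul_le_mul_of_nonneg_right h1 (by positivity)
        _ = _ := by ring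
    have h3 : κ ^ 2 * (2 * κ * D2 (mu ρ0) b N f) ≤ κ ^ 2 * ((1 + h) * e) :=
      mul_le_mul_of_nonneg_left hD2 hκ2.le
    have h4 : (1 + h) * (κ ^ 2 * e) ≤ (1 + 2 * h) * (κ ^ 2 * e * (1 - h / 4)) := by
      have h5 : 0 ≤ κ ^ 2 * e := by positivity
      have h6 : (1 + h) ≤ (1 + 2 * h) * (1 - h / 4) := by
        have h8 : h * h ≤ h * (1 / 10) := mul_le_mul_of_nonneg_left hh hh0
        have h9 : (1 + 2 * h) * (1 - h / 4) = 1 + 7 / 4 * h - 1 / 2 * (h * h) := by ring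
        rw [h9]
        linarith only [h8, hh0]
      calc (1 + h) * (κ ^ 2 * e) ≤ (1 + 2 * h) * (1 - h / 4) * (κ ^ 2 * e) :=
            mul_le_mul_of_nonneg_right h6 h5
        _ = _ := by ring
    have h7 : (1 + 2 * h) * (κ ^ 2 * e * (1 - h / 4)) ≤ (1 + 2 * h) * S2 :=
      mul_le_mul_of_nonneg_left hge (by linarith)
    calc _ ≤ _ := h2
      _ ≤ _ := h3
      _ = (1 + h) * (κ ^ 2 * e) := by ring
      _ ≤ _ := h4
      _ ≤ _ := h7
  have hfl : b * mFl (mu ρ0) b N (Sf κ f) ≤ 3 * h * S2 := by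
    have h1 := mFl_sf_le κ hρ hc hb hN hf
    have h2 := mul_le_mul_of_nonneg_left h1 hb.le
    have h3 : b * (2 * κ ^ 2 * BS (mu ρ0) b N f + κ ^ 2 / (2 * b) * AA (mu ρ0) b N f)
        = 2 * κ ^ 2 * (b * BS (mu ρ0) b N f) + κ ^ 2 / 2 * AA (mu ρ0) b N f := by
      field_simp
    rw [h3] at h2
    have h4 : 2 * κ ^ 2 * (b * BS (mu ρ0) b N f) ≤ 2 * κ ^ 2 * (h * e) :=
      mul_le_mul_of_nonneg_left hBS (by positivity)
    have h5 : κ ^ 2 / 2 * AA (mu ρ0) b N f ≤ κ ^ 2 / 2 * (h * e) :=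
      mul_le_mul_of_nonneg_left hAA (by positivity)
    have h6 : h * (κ ^ 2 * e * (39 / 40)) ≤ h * S2 := mul_le_mul_of_nonneg_left hge' hh0
    have h7 : 0 ≤ h * (κ ^ 2 * e) := by positivity
    calc _ ≤ _ := h2
      _ ≤ 2 * κ ^ 2 * (h * e) + κ ^ 2 / 2 * (h * e) := add_le_add h4 h5
      _ = 5 / 2 * (h * (κ ^ 2 * e)) := by ring
      _ ≤ 3 * (h * (κ ^ 2 * e * (39 / 40))) := by
          have : 3 * (h * (κ ^ 2 * e * (39 / 40))) = 117 / 40 * (h * (κ ^ 2 * e)) := by ring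
          rw [this]
          linarith only [h7]
      _ ≤ 3 * (h * S2) := by linarith only [h6]
      _ = 3 * h * S2 := by ring
  have hda : κ ^ 2 / 4 * DA (mu ρ0) b N f ≤ h * S2 / (4 * κ) := by
    rw [le_div_iff₀ (by positivity)]
    have h1 : κ ^ 2 / 2 * (2 * κ * DA (mu ρ0) b N f) ≤ κ ^ 2 / 2 * (h * e) :=
      mul_le_mul_of_nonneg_left hDA (by positivity)
    have h6 : h * (κ ^ 2 * e * (39 / 40)) ≤ h * S2 := mul_le_mul_of_nonneg_left hge' hh0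
    have h7 : 0 ≤ h * (κ ^ 2 * e) := by positivity
    calc κ ^ 2 / 4 * DA (mu ρ0) b N f * (4 * κ)
        = κ ^ 2 / 2 * (2 * κ * DA (mu ρ0) b N f) := by ring
      _ ≤ _ := h1
      _ = 1 / 2 * (h * (κ ^ 2 * e)) := by ring
      _ ≤ h * (κ ^ 2 * e * (39 / 40)) := by
          have : h * (κ ^ 2 * e * (39 / 40)) = 39 / 40 * (h * (κ ^ 2 * e)) := by ring
          rw [this]
          linarith only [h7]
      _ ≤ _ := h6
  refine ⟨sf_sb κ hf, sf_symm κ f, hS0, hid, hle, hge, hfi, hfi', ?_, hds, hfl, hda, ?_⟩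
  · linarith
  · rw [mAs_sf κ hf]
    exact hda

end Vale.Agent.P245.H670
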