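import Vale.Agent.P245.H792.MCa
import Vale.Agent.P245.H646.CombA

/-! # P245, row G2: nearly symmetric tensors

`T e i j` symmetric in the last two indices only; `T e i j - T i e j` is small.  Then the scale
integral of the weights costs `26/15 (1 + δ)` of `|T|²` plus a multiple of the asymmetry. -/

set_option linter.unusedSectionVars false

open Matrix Finset MeasureTheory
open scoped BigOperators

noncomputable section

namespace Vale.Agent.P245.H670

open Vale.Agent.P254.SP620 (Dec mf DK fr)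
open Vale.Agent.P245.H792

variable {ι : Type*} [Fintype ι]

/-- the square of a sum, summed -/
theorem sq_add_le3 {δ : ℝ} (hδ : 0 < δ) (a b : ℝ) :
    (a + b) ^ 2 ≤ (1 + δ) * a ^ 2 + (1 + 1 / δ) * b ^ 2 := by
  have e : (1 + δ) * a ^ 2 + (1 + 1 / δ) * b ^ 2 - (a + b) ^ 2 = (δ * a - b) ^ 2 / δ := by
    field_simp
    ring
  have : 0 ≤ (δ * a - b) ^ 2 / δ := by positivity
  linarith

/-- the full symmetrisation -/
def symT (T : ι → Matrix ι ι ℝ) (e : ι) : Matrix ι ι ℝ :=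
  of fun i j => (T e i j + T i e j + T j e i) / 3

theorem symT_apply (T : ι → Matrix ι ι ℝ) (e i j : ι) :
    symT T e i j = (T e i j + T i e j + T j e i) / 3 := rfl

theorem symT_symm1 {T : ι → Matrix ι ι ℝ} (h2 : ∀ e i j, T e i j = T e j i) (e i j : ι) :
    symT T e i j = symT T i e j := by
  rw [symT_apply, symT_apply, h2 j e i]
  ring

theorem symT_symm2 {T : ι → Matrix ι ι ℝ} (h2 : ∀ e i j, T e i j = T e j i) (e i j : ι) :
    symT T e i j = symT T e j i := by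
  rw [symT_apply, symT_apply, h2 e i j]
  ring

theorem swap12 (F : ι → ι → ι → ℝ) :
    ∑ e, ∑ i, ∑ j, F i e j = ∑ e, ∑ i, ∑ j, F e i j := Finset.sum_comm

theorem swap23 (F : ι → ι → ι → ℝ) :
    ∑ e, ∑ i, ∑ j, F e j i = ∑ e, ∑ i, ∑ j, F e i j :=
  Finset.sum_congr rfl fun _ _ => Finset.sum_comm

/-- symmetrisation does not increase the norm -/
theorem fr_symT_le (T : ι → Matrix ι ι ℝ) :
    ∑ e, fr (symT T e) ≤ ∑ e, fr (T e) := by
  unfold fr
  have h : ∀ e i j, symT T e i j ^ 2 ≤ (T e i j ^ 2 + T i e j ^ 2 + T j e i ^ 2) / 3 := by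
    intro e i j
    rw [symT_apply]
    nlinarith [sq_nonneg (T e i j - T i e j), sq_nonneg (T e i j - T j e i),
      sq_nonneg (T i e j - T j e i)]
  have s1 : ∑ e, ∑ i, ∑ j, T i e j ^ 2 = ∑ e, ∑ i, ∑ j, T e i j ^ 2 :=
    swap12 fun e i j => T e i j ^ 2
  have s2 : ∑ e, ∑ i, ∑ j, T j e i ^ 2 = ∑ e, ∑ i, ∑ j, T e i j ^ 2 := by
    rw [← swap23 fun e i j => T j e i ^ 2]
    exact swap12 fun e i j => T e i j ^ 2
  calc ∑ e, ∑ i, ∑ j, symT T e i j ^ 2
      ≤ ∑ e, ∑ i, ∑ j, (T e i j ^ 2 + T i e j ^ 2 + T j e i ^ 2) / 3 :=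
        Finset.sum_le_sum fun e _ => Finset.sum_le_sum fun i _ => Finset.sum_le_sum fun j _ =>
          h e i j
    _ = (∑ e, ∑ i, ∑ j, T e i j ^ 2 + ∑ e, ∑ i, ∑ j, T i e j ^ 2
          + ∑ e, ∑ i, ∑ j, T j e i ^ 2) / 3 := by
        simp only [← Finset.sum_add_distrib, Finset.sum_div]
    _ = ∑ e, ∑ i, ∑ j, T e i j ^ 2 := by rw [s1, s2]; ring

/-- the error of the symmetrisation -/
theorem fr_sub_symT_le {T : ι → Matrix ι ι ℝ} (h2 : ∀ e i j, T e i j = T e j i) :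
    ∑ e, fr (T e - symT T e) ≤ 4 / 9 * ∑ e, ∑ i, ∑ j, (T e i j - T i e j) ^ 2 := by
  unfold fr
  have h : ∀ e i j, (T e - symT T e) i j ^ 2 ≤
      2 / 9 * ((T e i j - T i e j) ^ 2 + (T e j i - T j e i) ^ 2) := by
    intro e i j
    rw [Matrix.sub_apply, symT_apply, h2 e j i]
    nlinarith [sq_nonneg ((T e i j - T i e j) - (T e i j - T j e i))]
  have s2 : ∑ e, ∑ i, ∑ j, (T e j i - T j e i) ^ 2
      = ∑ e, ∑ i, ∑ j, (T e i j - T i e j) ^ 2 := swap23 fun e i j => (T e i j - T i e j) ^ 2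
  calc ∑ e, ∑ i, ∑ j, (T e - symT T e) i j ^ 2
      ≤ ∑ e, ∑ i, ∑ j, 2 / 9 * ((T e i j - T i e j) ^ 2 + (T e j i - T j e i) ^ 2) :=
        Finset.sum_le_sum fun e _ => Finset.sum_le_sum fun i _ => Finset.sum_le_sum fun j _ =>
          h e i j
    _ = 2 / 9 * (∑ e, ∑ i, ∑ j, (T e i j - T i e j) ^ 2
          + ∑ e, ∑ i, ∑ j, (T e j i - T j e i) ^ 2) := by
        simp only [← Finset.sum_add_distrib, Finset.mul_sum]
    _ = 4 / 9 * ∑ e, ∑ i, ∑ j, (T e i j - T i e j) ^ 2 := by rw [s2]; ring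

variable [DecidableEq ι]

theorem rot_add (U : Matrix ι ι ℝ) (D E : ι → Matrix ι ι ℝ) (e i j : ι) :
    rot U (fun e => D e + E e) e i j = rot U D e i j + rot U E e i j := by
  simp only [rot_entry, Matrix.add_apply, mul_add, Finset.sum_add_distrib]

/-- weighted sums of nearly symmetric tensors -/
theorem weight_near {U : Matrix ι ι ℝ} (hU : Uᵀ * U = 1) {m : ι → ℝ} {b : ℝ} (hb : 0 < b)
    {T : ι → Matrix ι ι ℝ} (h2 : ∀ e i j, T e i j = T e j i) {δ : ℝ} (hδ : 0 < δ) :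
    ∑ e, ∑ i, ∑ j, om b (m e) (m i) (m j) * rot U T e i j ^ 2 ≤
      (1 + δ) * (26 / 15) * ∑ e, fr (T e) +
        (1 + 1 / δ) * (32 / 27) * ∑ e, ∑ i, ∑ j, (T e i j - T i e j) ^ 2 := by
  set E : ι → Matrix ι ι ℝ := fun e => T e - symT T e with hE
  have hT : T = fun e => symT T e + E e := by
    funext e
    rw [hE]
    simp
  have h0 : ∀ e i j, rot U T e i j = rot U (symT T) e i j + rot U E e i j := by
    intro e i j
    conv_lhs => rw [hT]
    exact rot_add U (symT T) E e i j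
  have w1 : ∑ e, ∑ i, ∑ j, om b (m e) (m i) (m j) * rot U (symT T) e i j ^ 2 ≤
      26 / 15 * ∑ e, fr (T e) := by
    have := comb (fun e i j => rot U (symT T) e i j) (rot_symm1 (symT_symm1 h2) U)
      (rot_symm2 (symT_symm2 h2) U) m hb
      (fun _ _ => 1) (fun i j => by
        have h0 : 0 ≤ max (m i ^ 2) (m j ^ 2) := le_max_of_le_left (sq_nonneg _)
        apply div_le_one_of_le₀
        · linarith
        · positivity)
    simp only [one_mul] at this
    have e1 : ∑ e, ∑ i, ∑ j, rot U (symT T) e i j ^ 2 = ∑ e, fr (symT T e) :=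
      sum_fr_rot hU (symT T)
    rw [e1] at this
    exact this.trans (mul_le_mul_of_nonneg_left (fr_symT_le T) (by norm_num))
  have w2 : ∑ e, ∑ i, ∑ j, om b (m e) (m i) (m j) * rot U E e i j ^ 2 ≤
      32 / 27 * ∑ e, ∑ i, ∑ j, (T e i j - T i e j) ^ 2 := by
    calc ∑ e, ∑ i, ∑ j, om b (m e) (m i) (m j) * rot U E e i j ^ 2
        ≤ ∑ e, ∑ i, ∑ j, 8 / 3 * rot U E e i j ^ 2 :=
          Finset.sum_le_sum fun e _ => Finset.sum_le_sum fun i _ => Finset.sum_le_sum fun j _ =>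
            mul_le_mul_of_nonneg_right (H646.om_le hb _ _ _) (sq_nonneg _)
      _ = 8 / 3 * ∑ e, fr (E e) := by
          rw [← sum_fr_rot hU E]
          simp only [fr, Finset.mul_sum]
      _ ≤ 8 / 3 * (4 / 9 * ∑ e, ∑ i, ∑ j, (T e i j - T i e j) ^ 2) :=
          mul_le_mul_of_nonneg_left (fr_sub_symT_le h2) (by norm_num)
      _ = 32 / 27 * ∑ e, ∑ i, ∑ j, (T e i j - T i e j) ^ 2 := by ring
  calc ∑ e, ∑ i, ∑ j, om b (m e) (m i) (m j) * rot U T e i j ^ 2
      ≤ ∑ e, ∑ i, ∑ j, ((1 + δ) * (om b (m e) (m i) (m j) * rot U (symT T) e i j ^ 2)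
          + (1 + 1 / δ) * (om b (m e) (m i) (m j) * rot U E e i j ^ 2)) := by
        refine Finset.sum_le_sum fun e _ => Finset.sum_le_sum fun i _ =>
          Finset.sum_le_sum fun j _ => ?_
        rw [h0 e i j]
        have h1 := sq_add_le3 hδ (rot U (symT T) e i j) (rot U E e i j)
        have h3 := om_nonneg hb (m e) (m i) (m j)
        have h4 := mul_le_mul_of_nonneg_left h1 h3
        linarith
    _ = (1 + δ) * ∑ e, ∑ i, ∑ j, om b (m e) (m i) (m j) * rot U (symT T) e i j ^ 2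
        + (1 + 1 / δ) * ∑ e, ∑ i, ∑ j, om b (m e) (m i) (m j) * rot U E e i j ^ 2 := by
        simp only [Finset.sum_add_distrib, Finset.mul_sum]
    _ ≤ (1 + δ) * (26 / 15 * ∑ e, fr (T e))
        + (1 + 1 / δ) * (32 / 27 * ∑ e, ∑ i, ∑ j, (T e i j - T i e j) ^ 2) := by
        gcongr
    _ = _ := by ring

/-- **MC2 for nearly symmetric tensors** -/
theorem mc2_near {S U : Matrix ι ι ℝ} {m : ι → ℝ} (h : Dec S U m) {b : ℝ} (hb : 0 < b)
    {T : ι → Matrix ι ι ℝ} (h2 : ∀ e i j, T e i j = T e j i) {δ : ℝ} (hδ : 0 < δ) :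
    ∫ s in (0 : ℝ)..b, wA s S U m T * (4 * s) ≤
      (1 + δ) * (26 / 15) * ∑ e, fr (T e) +
        (1 + 1 / δ) * (32 / 27) * ∑ e, ∑ i, ∑ j, (T e i j - T i e j) ^ 2 := by
  rw [mc2_eq h hb]
  exact weight_near h.orth hb h2 hδ

end Vale.Agent.P245.H670
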